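import Vale.Agent.P198.E.Main

/-! # P198 H/Defs: definitions and small tools of block H (owner helper94) -/

set_option linter.unusedSectionVars false

namespace Vale.Agent.P198
open Set Metric Filter Topology MeasureTheory
variable {G Z : Type} [Group G] [MetricSpace Z] [CompactSpace Z] [MulAction G Z]
  [ContinuousConstSMul G Z] [MeasurableSpace Z] [BorelSpace Z]

/-- The three functions `u`, `v`, `u + v`. -/
def tri (u v : C(Z, ℝ)) : Fin 3 → C(Z, ℝ) := ![u, v, u + v]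

/-- The total energy of the three functions. -/
def DF.St (D : DF G Z) (θ u v : C(Z, ℝ)) : ℝ := ∑ i, D.I θ (tri u v i) (tri u v i)

/-- On `W` the total energy is at most `m` and the energy densities are almost constant. -/
structure DF.Ap (D : DF G Z) (W : Set Z) (m η : ℝ) (u v : C(Z, ℝ)) (A : Fin 3 → ℝ) : Prop where
  hu : D.Harm W u
  hv : D.Harm W v
  mem : ∀ i, A i ∈ Icc (0 : ℝ) 1
  en : ∀ θ : C(Z, ℝ), tsupport θ ⊆ W → |D.St θ u v| ≤ m * ‖θ‖
  ap : ∀ (i : Fin 3) (θ : C(Z, ℝ)), tsupport θ ⊆ W →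
    |D.I θ (tri u v i) (tri u v i) - A i * D.St θ u v| ≤ η * m * ‖θ‖

/-- A harmonic pair with constant energy densities. -/
structure DF.QM (D : DF G Z) (O : Set Z) (u v : C(Z, ℝ)) (A : Fin 3 → ℝ) : Prop
    extends D.HP O u v where
  eq : ∀ (i : Fin 3) (θ : C(Z, ℝ)), tsupport θ ⊆ O →
    D.I θ (tri u v i) (tri u v i) = A i * D.St θ u v

/-- Uniformly Cauchy on `K`. -/
def UC (K : Set Z) (f : ℕ → C(Z, ℝ)) : Prop :=
  ∀ ε > 0, ∃ N, ∀ n ≥ N, ∀ m ≥ N, ∀ ξ ∈ K, |f n ξ - f m ξ| ≤ ε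

variable {D : DF G Z} {W W' : Set Z} {u v θ : C(Z, ℝ)}

theorem DF.Harm.mono_H (h : D.Harm W u) (hW : W' ⊆ W) : D.Harm W' u :=
  ⟨h.1, fun f hf hs => h.2 f hf (hs.trans hW)⟩

theorem DF.Harm.add_H (h : D.Harm W u) (h' : D.Harm W v) : D.Harm W (u + v) :=
  ⟨add_mem h.1 h'.1, fun f hf hs => by
    rw [map_add, LinearMap.add_apply, h.2 f hf hs, h'.2 f hf hs, add_zero]⟩

theorem DF.Harm.smul_H (h : D.Harm W u) (c : ℝ) : D.Harm W (c • u) :=
  ⟨D.dom.smul_mem c h.1, fun f hf hs => by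
    rw [map_smul, LinearMap.smul_apply, h.2 f hf hs, smul_zero]⟩

theorem DF.Harm.sub_H (h : D.Harm W u) (h' : D.Harm W v) : D.Harm W (u - v) :=
  ⟨sub_mem h.1 h'.1, fun f hf hs => by
    rw [map_sub, LinearMap.sub_apply, h.2 f hf hs, h'.2 f hf hs, sub_zero]⟩

theorem DF.I_const_H (D : DF G Z) (θ : C(Z, ℝ)) (c : ℝ) (hv : v ∈ D.dom) :
    D.I θ (ContinuousMap.const Z c) v = 0 :=
  D.orth θ (D.const_mem c) hv fun _ => Or.inl (Eventually.of_forall fun _ => rfl)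

theorem tri_mem (hu : u ∈ D.dom) (hv : v ∈ D.dom) (i : Fin 3) : tri u v i ∈ D.dom := by
  fin_cases i
  · exact hu
  · exact hv
  · exact add_mem hu hv

theorem DF.St_eq (D : DF G Z) (θ u v : C(Z, ℝ)) :
    D.St θ u v = D.I θ u u + D.I θ v v + D.I θ (u + v) (u + v) := by
  rw [DF.St, Fin.sum_univ_three]
  rfl

theorem DF.le_St (hθ : ∀ ξ, 0 ≤ θ ξ) (hu : u ∈ D.dom) (hv : v ∈ D.dom) :
    0 ≤ D.St θ u v ∧ D.I θ u u ≤ D.St θ u v ∧ D.I θ v v ≤ D.St θ u v := by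
  have h1 := D.nonneg hθ hu
  have h2 := D.nonneg hθ hv
  have h3 := D.nonneg hθ (add_mem hu hv)
  rw [D.St_eq]
  exact ⟨by linarith, by linarith, by linarith⟩

theorem DF.Ap.mono {m η : ℝ} {A : Fin 3 → ℝ} (h : D.Ap W m η u v A) (hW : W' ⊆ W) :
    D.Ap W' m η u v A :=
  ⟨h.hu.mono_H hW, h.hv.mono_H hW, h.mem, fun θ hθ => h.en θ (hθ.trans hW),
    fun i θ hθ => h.ap i θ (hθ.trans hW)⟩

/-- The energy measure of a compact set is bounded by the energies against cutoffs. -/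
theorem DF.meas_le_H (hu : u ∈ D.dom) {K : Set Z} (hK : IsCompact K) (hW : IsOpen W) (h : K ⊆ W)
    {B : ℝ} (hB : ∀ θ : C(Z, ℝ), (∀ ξ, 0 ≤ θ ξ ∧ θ ξ ≤ 1) → tsupport θ ⊆ W → D.I θ u u ≤ B) :
    (D.Γ u).real K ≤ B := by
  obtain ⟨χ, -, h01, h1, hs⟩ := D.cutoff hK hW h
  have := D.fin u
  refine le_trans ?_ (hB χ h01 hs)
  rw [D.repr χ u hu, ← integral_indicator_one hK.measurableSet]
  refine integral_mono ((integrable_const (1 : ℝ)).indicator hK.measurableSet)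
    (χ.continuous.integrable_of_hasCompactSupport (HasCompactSupport.of_compactSpace _)) fun ξ => ?_
  by_cases hξ : ξ ∈ K
  · rw [indicator_of_mem hξ, h1.self_of_nhdsSet ξ hξ]
    exact le_rfl
  · rw [indicator_of_notMem hξ]
    exact (h01 ξ).1

end Vale.Agent.P198
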