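import Vale.Agent.P198.H.Defs

/-! # P198 H/Dens (task): the densities are almost constant on small sets. Helper names end with `_Dens`.
Plan. `μ = ∑ j, m j`, `a i = ((m i).rnDeriv μ ·).toReal`, integrable (`Measure.integrable_toReal_rnDeriv`), `0 ≤ a i ≤ 1` a.e.
(`Measure.rnDeriv_le_one_of_le`), `∫ θ ∂m i = ∫ a i * θ ∂μ` (`integral_rnDeriv_smul` / `integral_toReal_rnDeriv_mul`).
`Integrable.exists_boundedContinuous_integral_sub_le` gives `b i` with `∫ ‖a i - b i‖ ≤ ε / 3`; `ν = μ.withDensity (ofReal ∑ i, |a i - b i|)`;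
uniform continuity gives `δ` with `|b i ξ - b i p| ≤ ε` on `ball p δ`; `A i = max 0 (min 1 (b i p))`, `|a - A| ≤ |a - b p|` for `a ∈ [0, 1]`.
Then `|∫ θ (a i - A i) ∂μ| ≤ ∫ in W, ‖θ‖ (|a i - b i| + ε) ∂μ`. -/

set_option linter.unusedSectionVars false

namespace Vale.Agent.P198
open Set Metric Filter Topology MeasureTheory
variable {G Z : Type} [Group G] [MetricSpace Z] [CompactSpace Z] [MulAction G Z]
  [ContinuousConstSMul G Z] [MeasurableSpace Z] [BorelSpace Z]

theorem clamp_Dens {a b : ℝ} (ha : a ∈ Icc (0 : ℝ) 1) : |a - max 0 (min 1 b)| ≤ |a - b| := by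
  have h1 := le_abs_self (a - b)
  have h2 := neg_abs_le (a - b)
  have h3 := ha.1
  have h4 := ha.2
  rcases le_total 1 b with h | h
  · rw [min_eq_left h, max_eq_right zero_le_one]
    exact abs_le.2 ⟨by linarith, by linarith⟩
  · rw [min_eq_right h]
    rcases le_total 0 b with h' | h'
    · rw [max_eq_right h']
    · rw [max_eq_left h']
      exact abs_le.2 ⟨by linarith, by linarith⟩

theorem est_Dens {μ : Measure Z} [IsFiniteMeasure μ] {a e : Z → ℝ} (ia : Integrable a μ)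
    (ie : Integrable e μ) {A ε : ℝ} {W : Set Z} (hW : MeasurableSet W) (θ : C(Z, ℝ))
    (h0 : ∀ ξ, ξ ∉ W → θ ξ = 0) (h : ∀ᵐ ξ ∂μ, ξ ∈ W → |a ξ - A| ≤ e ξ + ε) :
    |∫ ξ, a ξ * θ ξ ∂μ - A * ∫ ξ, θ ξ ∂μ| ≤ ‖θ‖ * (∫ ξ in W, e ξ ∂μ + ε * μ.real W) := by
  have iθ : Integrable θ μ :=
    θ.continuous.integrable_of_hasCompactSupport (HasCompactSupport.of_compactSpace _)
  have i1 : Integrable (fun ξ => a ξ * θ ξ) μ :=
    ia.mul_bdd θ.continuous.aestronglyMeasurable (ae_of_all _ fun ξ => θ.norm_coe_le_norm ξ)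
  have i2 : Integrable (fun ξ => ‖θ‖ * (e ξ + ε)) μ := (ie.add (integrable_const ε)).const_mul _
  have e1 : ∫ ξ, W.indicator (fun ξ => ‖θ‖ * (e ξ + ε)) ξ ∂μ =
      ‖θ‖ * (∫ ξ in W, e ξ ∂μ + ε * μ.real W) := by
    rw [integral_indicator hW, integral_const_mul,
      integral_add ie.integrableOn (integrable_const ε), setIntegral_const, smul_eq_mul,
      mul_comm ε]
  rw [← e1, ← integral_const_mul, ← integral_sub i1 (iθ.const_mul A), ← Real.norm_eq_abs]
  refine norm_integral_le_of_norm_le (i2.indicator hW) ?_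
  filter_upwards [h] with ξ hξ
  by_cases k : ξ ∈ W
  · rw [indicator_of_mem k, ← sub_mul, norm_mul, mul_comm]
    exact mul_le_mul (θ.norm_coe_le_norm ξ) (hξ k) (norm_nonneg _) (norm_nonneg _)
  · simp [indicator_of_notMem k, h0 ξ k]

theorem dens_H (m : Fin 3 → Measure Z) (hm : ∀ i, IsFiniteMeasure (m i)) {ε : ℝ} (hε : 0 < ε) :
    ∃ (ν : Measure Z) (δ : ℝ), IsFiniteMeasure ν ∧ ν.real univ ≤ ε ∧ 0 < δ ∧
      ∀ p : Z, ∃ A : Fin 3 → ℝ, (∀ i, A i ∈ Icc (0 : ℝ) 1) ∧
        ∀ W : Set Z, MeasurableSet W → W ⊆ ball p δ → ∀ θ : C(Z, ℝ), (∀ ξ, ξ ∉ W → θ ξ = 0) →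
          ∀ i, |∫ ξ, θ ξ ∂(m i) - A i * ∑ j, ∫ ξ, θ ξ ∂(m j)| ≤
            ‖θ‖ * (ν.real W + ε * ∑ j, (m j).real W) := by
  set μ : Measure Z := ∑ j, m j with hμ
  have : IsFiniteMeasure μ := inferInstance
  have le : ∀ i, m i ≤ μ := fun i =>
    Finset.single_le_sum (f := m) (fun j _ => Measure.zero_le _) (Finset.mem_univ i)
  let a : Fin 3 → Z → ℝ := fun i ξ => ((m i).rnDeriv μ ξ).toReal
  have ia : ∀ i, Integrable (a i) μ := fun i => Measure.integrable_toReal_rnDeriv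
  have a01 : ∀ i, ∀ᵐ ξ ∂μ, a i ξ ∈ Icc (0 : ℝ) 1 := fun i => by
    filter_upwards [Measure.rnDeriv_le_one_of_le (le i)] with ξ hξ
    exact ⟨ENNReal.toReal_nonneg, ENNReal.toReal_le_of_le_ofReal zero_le_one (by simpa using hξ)⟩
  choose b hb ib using fun i => (ia i).exists_boundedContinuous_integral_sub_le
    (by positivity : 0 < ε / 3)
  let e : Z → ℝ := fun ξ => ∑ i, ‖a i ξ - b i ξ‖
  have ie1 : ∀ i, Integrable (fun ξ => ‖a i ξ - b i ξ‖) μ := fun i => ((ia i).sub (ib i)).norm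
  have ie : Integrable e μ := integrable_finsetSum _ fun i _ => ie1 i
  have e0 : ∀ ξ, 0 ≤ e ξ := fun ξ => Finset.sum_nonneg fun i _ => norm_nonneg _
  have hν : ∀ W, MeasurableSet W →
      (μ.withDensity fun ξ => ENNReal.ofReal (e ξ)).real W = ∫ ξ in W, e ξ ∂μ := fun W hW => by
    rw [Measure.real, withDensity_apply _ hW,
      integral_eq_lintegral_of_nonneg_ae (ae_of_all _ e0) ie.integrableOn.aestronglyMeasurable]
  obtain ⟨δ, δ0, hδ⟩ := Metric.uniformContinuous_iff.1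
    (CompactSpace.uniformContinuous_of_continuous (f := fun ξ i => b i ξ)
      (continuous_pi fun i => (b i).continuous)) ε hε
  refine ⟨μ.withDensity fun ξ => ENNReal.ofReal (e ξ), δ, isFiniteMeasure_withDensity_ofReal ie.2,
    ?_, δ0, fun p => ⟨fun i => max 0 (min 1 (b i p)), fun i =>
      ⟨le_max_left _ _, max_le zero_le_one (min_le_left _ _)⟩, fun W hW hp θ h0 i => ?_⟩⟩
  · rw [hν _ MeasurableSet.univ, Measure.restrict_univ, integral_finsetSum _ fun i _ => ie1 i,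
      Fin.sum_univ_three]
    linarith [hb 0, hb 1, hb 2]
  · have e1 : ∑ j, (m j).real W = μ.real W := by
      rw [Measure.real, hμ, Measure.finsetSum_apply,
        ENNReal.toReal_sum fun j _ => measure_ne_top _ _]
      rfl
    rw [hν W hW, e1, ← integral_finsetSum_measure fun j _ =>
      θ.continuous.integrable_of_hasCompactSupport (HasCompactSupport.of_compactSpace _),
      ← integral_toReal_rnDeriv_mul (Measure.absolutelyContinuous_of_le (le i))]
    refine est_Dens (ia i) ie hW θ h0 ?_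
    filter_upwards [a01 i] with ξ hξ k
    have k1 : |b i ξ - b i p| ≤ ε := (dist_le_pi_dist _ _ i).trans (hδ (hp k)).le
    have k2 : |a i ξ - b i ξ| ≤ e ξ :=
      Finset.single_le_sum (f := fun i => ‖a i ξ - b i ξ‖) (fun j _ => norm_nonneg _)
        (Finset.mem_univ i)
    exact (clamp_Dens hξ).trans ((abs_sub_le _ (b i ξ) _).trans (add_le_add k2 k1))

end Vale.Agent.P198
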