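import Vale.Agent.P198.H.Defs

/-! # P198 H/Equi (task): uniform bounds, Arzela-Ascoli, area of a limit. Helper names end with `_Equi`.
`unif_H`: `Z` is infinite (`sph_conn X.sph`), so there are two points at distance `d₀ > 0` and every `ξ` has a point `ω` with `d₀ / 2 ≤ dist ω ξ`.
`r = min (r₀ / 10) (d₀ / 8)`; for `ξ ∈ closedBall p (r₀ / 2)`: `closedBall ξ (4 r) ⊆ ball p r₀` and `(Γ u).real (closedBall ξ (2 r)) ≤ 1` (`meas_le_H`).
`r₂ = min (τ r) (r₀ / 2)` with `τ` from `D.equi X 1` (centre `p`); for `ε` use `D.equi X (1 / ε ^ 2)`, `δ = τ r`.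
`aa_H`: restrict to the compact subtype `K`, `BoundedContinuousFunction.mkOfCompact`, `BoundedContinuousFunction.arzela_ascoli` with `Icc (-1) 1`
(`Metric.equicontinuousAt_iff`), `IsCompact.tendsto_subseq`, `Metric.cauchySeq_iff`, `dist_coe_le_dist`.
`area_lim`: `cx (u n) (v n) '' K ⊆ cthickening (2 ε) (cx u' v' '' K)` (`Complex.norm_le_abs_re_add_abs_im`), `tendsto_measure_cthickening_of_isCompact`, `ge_of_tendsto` along `𝓝[>] 0`. -/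

set_option linter.unusedSectionVars false

namespace Vale.Agent.P198
open Set Metric Filter Topology MeasureTheory
variable {G Z : Type} [Group G] [MetricSpace Z] [CompactSpace Z] [MulAction G Z]
  [ContinuousConstSMul G Z] [MeasurableSpace Z] [BorelSpace Z]

theorem key_Equi (X : GP G Z) (D : DF G Z) {r₀ : ℝ} (h₀ : 0 < r₀) {ε : ℝ} (hε : 0 < ε) :
    ∃ δ > 0, ∀ (p : Z) (u : C(Z, ℝ)), D.Harm (ball p r₀) u →
      (∀ θ : C(Z, ℝ), (∀ ξ, 0 ≤ θ ξ ∧ θ ξ ≤ 1) → tsupport θ ⊆ ball p r₀ → D.I θ u u ≤ 1) →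
        ∀ ξ ∈ closedBall p (r₀ / 2), ∀ ζ, dist ζ ξ ≤ δ → |u ξ - u ζ| ≤ ε := by
  have := (sph_conn X.sph).2.2
  obtain ⟨a, b, hab⟩ := exists_pair_ne Z
  have hd := dist_pos.2 hab
  obtain ⟨τ, hτ, h⟩ := D.equi X (1 / ε ^ 2)
  have h1 := min_le_left (r₀ / 10) (dist a b / 8)
  have h2 := min_le_right (r₀ / 10) (dist a b / 8)
  have h3 : 0 < min (r₀ / 10) (dist a b / 8) := by positivity
  generalize min (r₀ / 10) (dist a b / 8) = r at h1 h2 h3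
  refine ⟨τ * r, by positivity, fun p u hu hθ ξ hξ ζ hζ => ?_⟩
  obtain ⟨ω, hω⟩ : ∃ ω, 4 * r ≤ dist ω ξ := by
    by_contra hn
    push Not at hn
    linarith [hn a, hn b, dist_triangle_right a b ξ]
  have h4 : closedBall ξ (4 * r) ⊆ ball p r₀ :=
    closedBall_subset_ball' (by linarith [mem_closedBall.1 hξ])
  have h5 := (h _ u hu ξ ω r h3 h4 hω ζ hζ).trans (DF.meas_le_H hu.1 isClosed_closedBall.isCompact
    isOpen_ball ((closedBall_subset_closedBall (by linarith)).trans h4) hθ)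
  rw [one_div_mul_eq_div, div_le_one (by positivity)] at h5
  exact abs_le.2 (abs_le_of_sq_le_sq' h5 hε.le)

theorem DF.unif_H (X : GP G Z) (D : DF G Z) {r₀ : ℝ} (h₀ : 0 < r₀) : ∃ r₂ > 0, r₂ ≤ r₀ / 2 ∧
    (∀ (p : Z) (u : C(Z, ℝ)), D.Harm (ball p r₀) u →
      (∀ θ : C(Z, ℝ), (∀ ξ, 0 ≤ θ ξ ∧ θ ξ ≤ 1) → tsupport θ ⊆ ball p r₀ → D.I θ u u ≤ 1) →
        ∀ ξ ∈ closedBall p r₂, |u ξ - u p| ≤ 1) ∧
    ∀ ε > 0, ∃ δ > 0, ∀ (p : Z) (u : C(Z, ℝ)), D.Harm (ball p r₀) u →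
      (∀ θ : C(Z, ℝ), (∀ ξ, 0 ≤ θ ξ ∧ θ ξ ≤ 1) → tsupport θ ⊆ ball p r₀ → D.I θ u u ≤ 1) →
        ∀ ξ ∈ closedBall p r₂, ∀ ζ, dist ζ ξ ≤ δ → |u ξ - u ζ| ≤ ε := by
  obtain ⟨δ, hδ, h⟩ := key_Equi X D h₀ one_pos
  refine ⟨min δ (r₀ / 2), by positivity, min_le_right _ _, fun p u hu hθ ξ hξ => ?_,
    fun ε hε => ?_⟩
  · rw [abs_sub_comm]
    exact h p u hu hθ p (mem_closedBall_self (half_pos h₀).le) ξ (hξ.trans (min_le_left _ _))
  · obtain ⟨η, hη, h'⟩ := key_Equi X D h₀ hε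
    exact ⟨η, hη, fun p u hu hθ ξ hξ =>
      h' p u hu hθ ξ (closedBall_subset_closedBall (min_le_right _ _) hξ)⟩

theorem aa_H {K : Set Z} (hK : IsCompact K) (f : ℕ → C(Z, ℝ)) (hb : ∀ n, ∀ ξ ∈ K, |f n ξ| ≤ 1)
    (he : ∀ ε > 0, ∃ δ > 0, ∀ n, ∀ ξ ∈ K, ∀ ζ, dist ζ ξ ≤ δ → |f n ξ - f n ζ| ≤ ε) :
    ∃ φ : ℕ → ℕ, StrictMono φ ∧ UC K fun n => f (φ n) := by
  have := isCompact_iff_compactSpace.1 hK
  let g : ℕ → BoundedContinuousFunction K ℝ := fun n =>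
    BoundedContinuousFunction.mkOfCompact ((f n).restrict K)
  have hc := BoundedContinuousFunction.arzela_ascoli (Icc (-1 : ℝ) 1) isCompact_Icc (range g)
    (by rintro _ x ⟨n, rfl⟩; exact abs_le.1 (hb n x x.2)) fun x =>
      Metric.equicontinuousAt_iff.2 fun ε hε => by
        obtain ⟨δ, hδ, h⟩ := he (ε / 2) (half_pos hε)
        refine ⟨δ, hδ, fun y hy => ?_⟩
        rintro ⟨_, n, rfl⟩
        exact (h n x x.2 y hy.le).trans_lt (half_lt_self hε)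
  obtain ⟨a, -, φ, hφ, h⟩ := hc.tendsto_subseq fun n => subset_closure (mem_range_self n)
  refine ⟨φ, hφ, fun ε hε => ?_⟩
  obtain ⟨N, hN⟩ := Metric.cauchySeq_iff.1 h.cauchySeq ε hε
  exact ⟨N, fun n hn m hm ξ hξ =>
    (BoundedContinuousFunction.dist_coe_le_dist (⟨ξ, hξ⟩ : K)).trans (hN n hn m hm).le⟩

theorem area_lim {K : Set Z} (hK : IsCompact K) {u v : ℕ → C(Z, ℝ)} {u' v' : C(Z, ℝ)}
    (hu : ∀ ε > 0, ∀ᶠ n in atTop, ∀ ξ ∈ K, |u n ξ - u' ξ| ≤ ε)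
    (hv : ∀ ε > 0, ∀ᶠ n in atTop, ∀ ξ ∈ K, |v n ξ - v' ξ| ≤ ε) {c : ENNReal}
    (h : ∀ n, c ≤ volume (cx (u n) (v n) '' K)) : c ≤ volume (cx u' v' '' K) := by
  have hc : Continuous (cx u' v') :=
    Complex.equivRealProdCLM.symm.continuous.comp (u'.continuous.prodMk v'.continuous)
  refine ge_of_tendsto ((tendsto_measure_cthickening_of_isCompact (hK.image hc)).mono_left
    (nhdsWithin_le_nhds (s := Ioi 0))) (eventually_mem_nhdsWithin.mono fun ε hε => ?_)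
  obtain ⟨n, h1, h2⟩ := ((hu _ (half_pos hε)).and (hv _ (half_pos hε))).exists
  refine (h n).trans (measure_mono ?_)
  rintro _ ⟨ξ, hξ, rfl⟩
  refine mem_cthickening_of_dist_le _ _ _ _ (mem_image_of_mem _ hξ) ?_
  rw [dist_eq_norm]
  exact (Complex.norm_le_abs_re_add_abs_im _).trans
    ((add_le_add (h1 ξ hξ) (h2 ξ hξ)).trans_eq (add_halves ε))

end Vale.Agent.P198
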