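import Vale.Agent.P198.H.Defs

/-! # P198 H/Gram (task): Gram-Schmidt. Helper names end with `_Gram`.
With `S = D.St θ u v`: `I θ u u = a S`, `I θ v v = b S`, `I θ u v = e S`, `a = A 0`, `b = A 1`, `e = (A 2 - a - b) / 2` (expand `h.eq 2`, `D.symm`); `0 ≤ S` for `θ ≥ 0` (`le_St`).
`degen`: `w = s • u + t • v`; `O` is a countable union of compact sets (`IsOpen.exists_iUnion_isClosed`), `meas_le_H` with `B = 0` gives `Γ w O = 0`, `zero_const`;
so `w '' K` is finite (compactness: `IsCompact.elim_nhds_subcover`) and `cx u v '' K` lies in finitely many lines `s x + t y = const`, each null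
(`Measure.addHaar_affineSubspace`, or translate the kernel of a linear form, `Measure.addHaar_submodule`).
`exists_hm`: `a > 0` by `degen` with `(1, 0)`, `d = b - e ^ 2 / a > 0` by `degen` with `(-e / a, 1)`; `u' = (√a)⁻¹ • u`, `v' = (√d)⁻¹ • (v - (e / a) • u)`.
Area: `cx u v '' K = L '' (cx u' v' '' K)` for a real linear map `L` of `ℂ`, `Measure.addHaar_image_linearMap`. -/

set_option linter.unusedSectionVars false

namespace Vale.Agent.P198
open Set Metric Filter Topology MeasureTheory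
variable {G Z : Type} [Group G] [MetricSpace Z] [CompactSpace Z] [MulAction G Z]
  [ContinuousConstSMul G Z] [MeasurableSpace Z] [BorelSpace Z]

theorem line_Gram {s t : ℝ} (hst : s ≠ 0 ∨ t ≠ 0) (c : ℝ) :
    volume {z : ℂ | s * z.re + t * z.im = c} = 0 := by
  let f : ℂ →ₗ[ℝ] ℝ := s • Complex.reLm + t • Complex.imLm
  have hf : ∀ z, f z = s * z.re + t * z.im := fun z => rfl
  have h0 : volume (LinearMap.ker f : Set ℂ) = 0 := Measure.addHaar_submodule _ _ fun e => by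
    have h1 : (1 : ℂ) ∈ LinearMap.ker f := e ▸ Submodule.mem_top
    have h2 : Complex.I ∈ LinearMap.ker f := e ▸ Submodule.mem_top
    rw [LinearMap.mem_ker, hf] at h1 h2
    simp at h1 h2
    tauto
  rcases eq_empty_or_nonempty {z : ℂ | s * z.re + t * z.im = c} with e | ⟨z₀, h⟩
  · rw [e, measure_empty]
  rw [← measure_preimage_add volume (-z₀)] at h0
  refine measure_mono_null (fun z hz => ?_) h0
  change f (-z₀ + z) = 0
  rw [map_add, map_neg, hf, hf, h, hz, neg_add_cancel]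

theorem DF.HP.degen (X : GP G Z) {D : DF G Z} {O : Set Z} {u v : C(Z, ℝ)} (h : D.HP O u v)
    {s t : ℝ} (hst : s ≠ 0 ∨ t ≠ 0) : ∃ θ : C(Z, ℝ), (∀ ξ, 0 ≤ θ ξ) ∧ tsupport θ ⊆ O ∧
      0 < D.I θ (s • u + t • v) (s • u + t • v) := by
  by_contra hn
  push Not at hn
  obtain ⟨K, hK, hKO, ha⟩ := h.area
  obtain ⟨K', hK', h1, h2⟩ := exists_compact_between hK h.op hKO
  have hw : s • u + t • v ∈ D.dom := add_mem (D.dom.smul_mem s h.hu.1) (D.dom.smul_mem t h.hv.1)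
  have h3 := DF.meas_le_H hw hK' h.op h2 fun θ h01 hs => hn θ (fun ξ => (h01 ξ).1) hs
  have := D.fin (s • u + t • v)
  have h4 : D.Γ (s • u + t • v) K' = 0 :=
    (measureReal_eq_zero_iff (measure_ne_top _ _)).1 (le_antisymm h3 measureReal_nonneg)
  have h5 := D.zero_const X hw isOpen_interior (measure_mono_null interior_subset h4)
  obtain ⟨T, -, hT⟩ := hK.elim_nhds_subcover
    (fun ξ => {ζ | (s • u + t • v) ζ = (s • u + t • v) ξ}) fun ξ hξ => h5 ξ (h1 hξ)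
  refine ha.ne' (measure_mono_null (t := ⋃ ξ ∈ T,
    {z : ℂ | s * z.re + t * z.im = (s • u + t • v) ξ}) ?_
    ((measure_biUnion_null_iff T.countable_toSet).2 fun ξ _ => line_Gram hst _))
  rintro _ ⟨ζ, hζ, rfl⟩
  obtain ⟨ξ, h6, h7⟩ := mem_iUnion₂.1 (hT hζ)
  exact mem_iUnion₂.2 ⟨ξ, h6, h7⟩

theorem DF.QM.exists_hm (X : GP G Z) {D : DF G Z} {O : Set Z} {u v : C(Z, ℝ)} {A : Fin 3 → ℝ}
    (h : D.QM O u v A) : ∃ u' v', D.HM O u' v' := by
  obtain ⟨e, he⟩ : ∃ e, ∀ θ : C(Z, ℝ), tsupport θ ⊆ O → D.I θ u u = A 0 * D.St θ u v ∧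
      D.I θ v v = A 1 * D.St θ u v ∧ D.I θ u v = e * D.St θ u v ∧
      D.I θ v u = e * D.St θ u v := by
    refine ⟨(A 2 - A 0 - A 1) / 2, fun θ hθ => ?_⟩
    have h0 : D.I θ u u = _ := h.eq 0 θ hθ
    have h1 : D.I θ v v = _ := h.eq 1 θ hθ
    have h2 : D.I θ (u + v) (u + v) = _ := h.eq 2 θ hθ
    simp only [map_add, LinearMap.add_apply] at h2
    have h3 := D.symm θ u v
    exact ⟨h0, h1, by linarith, by linarith⟩
  have q : ∀ (s t s' t' : ℝ) (θ : C(Z, ℝ)), tsupport θ ⊆ O →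
      D.I θ (s • u + t • v) (s' • u + t' • v) =
        (s * s' * A 0 + (s * t' + t * s') * e + t * t' * A 1) * D.St θ u v := by
    intro s t s' t' θ hθ
    obtain ⟨h0, h1, h2, h3⟩ := he θ hθ
    simp only [map_add, map_smul, LinearMap.add_apply, LinearMap.smul_apply, smul_eq_mul, h0, h1,
      h2, h3]
    ring
  have pos : ∀ s t : ℝ, s ≠ 0 ∨ t ≠ 0 →
      0 < s * s * A 0 + (s * t + t * s) * e + t * t * A 1 := fun s t hst => by
    obtain ⟨θ, h0, hθ, hp⟩ := h.toHP.degen X hst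
    rw [q s t s t θ hθ] at hp
    exact pos_of_mul_pos_left hp (DF.le_St h0 h.hu.1 h.hv.1).1
  have a0 : 0 < A 0 := by simpa using pos 1 0 (Or.inl one_ne_zero)
  have d0 : 0 < A 1 - e ^ 2 / A 0 := by
    refine (pos (-e / A 0) 1 (Or.inr one_ne_zero)).trans_eq ?_
    field_simp
    ring
  obtain ⟨a, ha, ha2⟩ : ∃ a : ℝ, 0 < a ∧ a ^ 2 = A 0 := ⟨_, Real.sqrt_pos.2 a0, Real.sq_sqrt a0.le⟩
  obtain ⟨d, hd, hd2⟩ : ∃ d : ℝ, 0 < d ∧ d ^ 2 = A 1 - e ^ 2 / A 0 :=
    ⟨_, Real.sqrt_pos.2 d0, Real.sq_sqrt d0.le⟩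
  have hb : A 1 = d ^ 2 + e ^ 2 / a ^ 2 := by rw [hd2, ha2, sub_add_cancel]
  obtain ⟨K, hK, hKO, hv⟩ := h.area
  refine ⟨a⁻¹ • u + (0 : ℝ) • v, (-(e / a ^ 2 / d)) • u + d⁻¹ • v,
    ⟨h.op, (h.hu.smul_H _).add_H (h.hv.smul_H _), (h.hu.smul_H _).add_H (h.hv.smul_H _), K, hK,
      hKO, pos_iff_ne_zero.2 fun h0 => hv.ne' ?_⟩, fun θ hθ => ?_⟩
  · let L : ℂ →ₗ[ℝ] ℂ := (a • Complex.reLm).smulRight 1 +
      (d • Complex.imLm + (e / a) • Complex.reLm).smulRight Complex.I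
    have h1 := Measure.addHaar_image_linearMap volume L
      (cx (a⁻¹ • u + (0 : ℝ) • v : C(Z, ℝ)) ((-(e / a ^ 2 / d)) • u + d⁻¹ • v : C(Z, ℝ)) '' K)
    rw [h0, mul_zero, image_image] at h1
    refine (congrArg volume (image_congr fun ξ _ => ?_)).trans h1
    have hL : ∀ z, (L z).re = a * z.re ∧ (L z).im = d * z.im + e / a * z.re := fun z => by
      simp [L, -Complex.ofReal_div]
    refine Complex.ext ((hL _).1.trans ?_).symm ((hL _).2.trans ?_).symm
    all_goals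
      simp only [cx, ContinuousMap.add_apply, ContinuousMap.smul_apply, smul_eq_mul]
      field_simp
      ring
  · rw [q _ _ _ _ θ hθ, q _ _ _ _ θ hθ, q _ _ _ _ θ hθ, hb, ← ha2]
    constructor
    · congr 1
      field_simp
      ring
    · refine mul_eq_zero_of_left ?_ _
      field_simp
      ring

end Vale.Agent.P198
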