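import Vale.Agent.P198.H.Defs

/-! # P198 H/LimE (task): limits in energy. Helper names end with `_LimE`.
`lim_en`: `χ * u n` is Cauchy in `C(Z, ℝ)` (`‖χ * (u n - u m)‖ ≤ ‖χ‖ ε`, off `tsupport χ` it vanishes), `cauchySeq_tendsto_of_complete`; `cacc` for `u n - u m` (`sub_H`)
with `a = ε`; `D.closed`, `mul_mem`. `lim_I`: `I θ f g - I θ f' g' = I θ (f - f') (g - g') + I θ (f - f') g' + I θ f' (g - g')`, `abs_le`, squeeze the squares.
`I_cut`: `D.loc` with `c = 0` twice, `D.symm`. `lim_harm`: `D.orth` for `χ * u n - u n` and `h` (near a point of `O` the first vanishes, off `tsupport h` the second: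
`notMem_tsupport_iff_eventuallyEq`), so `I 1 (χ * u n) h = 0`; `lim_I` with the constant sequence `h`. -/

set_option linter.unusedSectionVars false

namespace Vale.Agent.P198
open Set Metric Filter Topology MeasureTheory
variable {G Z : Type} [Group G] [MetricSpace Z] [CompactSpace Z] [MulAction G Z]
  [ContinuousConstSMul G Z] [MeasurableSpace Z] [BorelSpace Z]

variable {D : DF G Z} {W K O : Set Z} {χ : C(Z, ℝ)}

theorem DF.lim_en (hχ : χ ∈ D.dom) (hK : tsupport χ ⊆ K) (hW : K ⊆ W) {u : ℕ → C(Z, ℝ)}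
    (hu : ∀ n, D.Harm W (u n)) (hc : UC K u) :
    ∃ w ∈ D.dom, Tendsto (fun n => χ * u n) atTop (𝓝 w) ∧
      Tendsto (fun n => D.I 1 (χ * u n - w) (χ * u n - w)) atTop (𝓝 0) := by
  have hC : CauchySeq fun n => χ * u n := by
    refine Metric.cauchySeq_iff.2 fun ε hε => ?_
    have h1 : 0 < ‖χ‖ + 1 := by positivity
    obtain ⟨N, hN⟩ := hc (ε / (‖χ‖ + 1)) (div_pos hε h1)
    refine ⟨N, fun m hm n hn => lt_of_le_of_lt (b := ‖χ‖ * (ε / (‖χ‖ + 1))) ?_ ?_⟩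
    · refine (ContinuousMap.dist_le (by positivity)).2 fun ξ => ?_
      rw [Real.dist_eq, ContinuousMap.mul_apply, ContinuousMap.mul_apply, ← mul_sub, abs_mul]
      by_cases hξ : ξ ∈ tsupport χ
      · exact mul_le_mul (χ.norm_coe_le_norm ξ) (hN m hm n hn ξ (hK hξ)) (abs_nonneg _)
          (norm_nonneg _)
      · rw [image_eq_zero_of_notMem_tsupport hξ, abs_zero, zero_mul]
        positivity
    · rw [mul_div_assoc', div_lt_iff₀ h1]
      nlinarith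
  obtain ⟨w, hw⟩ := cauchySeq_tendsto_of_complete hC
  have hE : 0 ≤ D.I 1 χ χ := D.nonneg (fun _ => zero_le_one) hχ
  obtain ⟨h1, h2⟩ := D.closed (fun n => D.mul_mem hχ (hu n).1) hw fun η hη => by
    have h3 : 0 < 10 * D.I 1 χ χ + 1 := by positivity
    obtain ⟨N, hN⟩ := hc √(η / (10 * D.I 1 χ χ + 1)) (Real.sqrt_pos.2 (div_pos hη h3))
    refine ⟨N, fun n hn m hm => ?_⟩
    rw [← mul_sub]
    refine (DF.cacc ((hu n).sub_H (hu m)) hχ (hK.trans hW)
      fun ξ hξ => hN n hn m hm ξ (hK hξ)).trans ?_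
    rw [Real.sq_sqrt (div_pos hη h3).le, mul_div_assoc', div_mul_eq_mul_div, div_le_iff₀ h3]
    nlinarith
  exact ⟨w, h1, hw, h2⟩

theorem sq_LimE {x y : ℕ → ℝ} (h : ∀ n, x n ^ 2 ≤ y n) (hy : Tendsto y atTop (𝓝 0)) :
    Tendsto x atTop (𝓝 0) := by
  refine squeeze_zero_norm (fun n => Real.abs_le_sqrt (h n)) ?_
  simpa using hy.sqrt

theorem DF.lim_I {f g : ℕ → C(Z, ℝ)} {f' g' : C(Z, ℝ)} (hf : ∀ n, f n ∈ D.dom)
    (hg : ∀ n, g n ∈ D.dom) (hf' : f' ∈ D.dom) (hg' : g' ∈ D.dom)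
    (h1 : Tendsto (fun n => D.I 1 (f n - f') (f n - f')) atTop (𝓝 0))
    (h2 : Tendsto (fun n => D.I 1 (g n - g') (g n - g')) atTop (𝓝 0)) (θ : C(Z, ℝ)) :
    Tendsto (fun n => D.I θ (f n) (g n)) atTop (𝓝 (D.I θ f' g')) := by
  have a1 := sq_LimE (fun n => D.abs_le θ (sub_mem (hf n) hf') (sub_mem (hg n) hg'))
    (by simpa using (h1.mul h2).const_mul (‖θ‖ ^ 2))
  have a2 := sq_LimE (fun n => D.abs_le θ (sub_mem (hf n) hf') hg')
    (by simpa using (h1.mul_const (D.I 1 g' g')).const_mul (‖θ‖ ^ 2))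
  have a3 := sq_LimE (fun n => D.abs_le θ hf' (sub_mem (hg n) hg'))
    (by simpa using (h2.const_mul (D.I 1 f' f')).const_mul (‖θ‖ ^ 2))
  have a4 := ((a1.add a2).add a3).add_const (D.I θ f' g')
  rw [add_zero, add_zero, zero_add] at a4
  refine a4.congr fun n => ?_
  simp only [map_sub, LinearMap.sub_apply]
  ring

theorem DF.I_cut (hχ : χ ∈ D.dom) (hO : IsOpen O) (h1 : ∀ ξ ∈ O, χ ξ = 1) {f g θ : C(Z, ℝ)}
    (hf : f ∈ D.dom) (hg : g ∈ D.dom) (hθ : tsupport θ ⊆ O) :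
    D.I θ (χ * f) (χ * g) = D.I θ f g := by
  have e : ∀ k : C(Z, ℝ), ∀ ξ ∈ O, (χ * k) ξ = k ξ + 0 := fun k ξ hξ => by
    rw [ContinuousMap.mul_apply, h1 ξ hξ, one_mul, add_zero]
  rw [D.loc (D.mul_mem hχ hf) hf (D.mul_mem hχ hg) hO hθ 0 (e f), D.symm,
    D.loc (D.mul_mem hχ hg) hg hf hO hθ 0 (e g), D.symm]

theorem DF.lim_harm (hχ : χ ∈ D.dom) (hO : IsOpen O) (h1 : ∀ ξ ∈ O, χ ξ = 1) {u : ℕ → C(Z, ℝ)}
    (hu : ∀ n, D.Harm O (u n)) {w : C(Z, ℝ)} (hw : w ∈ D.dom)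
    (h : Tendsto (fun n => D.I 1 (χ * u n - w) (χ * u n - w)) atTop (𝓝 0)) : D.Harm O w := by
  refine ⟨hw, fun k hk hs => ?_⟩
  have e : ∀ n, D.I 1 (χ * u n) k = 0 := fun n => by
    have z : ∀ ξ ∈ O, (χ * u n - u n) ξ = 0 := fun ξ hξ => by
      rw [ContinuousMap.sub_apply, ContinuousMap.mul_apply, h1 ξ hξ, one_mul, sub_self]
    have a := D.orth 1 (sub_mem (D.mul_mem hχ (hu n).1) (hu n).1) hk fun ξ => by
      by_cases hξ : ξ ∈ O
      · exact Or.inl ((hO.eventually_mem hξ).mono fun ζ hζ => by rw [z ζ hζ, z ξ hξ])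
      · have h2 : ξ ∉ tsupport k := fun h => hξ (hs h)
        exact Or.inr ((notMem_tsupport_iff_eventuallyEq.1 h2).mono fun ζ hζ => by
          rw [hζ, image_eq_zero_of_notMem_tsupport h2, Pi.zero_apply])
    rwa [map_sub, LinearMap.sub_apply, (hu n).2 k hk hs, sub_zero] at a
  have a := DF.lim_I (g := fun _ => k) (fun n => D.mul_mem hχ (hu n).1) (fun _ => hk) hw hk h
    (by simp) 1
  simp only [e] at a
  exact tendsto_nhds_unique a tendsto_const_nhds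

end Vale.Agent.P198
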