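import Vale.Agent.P198.H.Zoom
import Vale.Agent.P198.H.Equi
import Vale.Agent.P198.H.LimE

/-! # P198 H/Lim (helper94): the blow-up limit. -/

set_option linter.unusedSectionVars false

namespace Vale.Agent.P198
open Set Metric Filter Topology MeasureTheory
variable {G Z : Type} [Group G] [MetricSpace Z] [CompactSpace Z] [MulAction G Z]
  [ContinuousConstSMul G Z] [MeasurableSpace Z] [BorelSpace Z]

theorem DF.lim_fixed (D : DF G Z) {p : Z} {r c : ℝ} (hr : 0 < r) (hc : 0 < c)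
    {u v : ℕ → C(Z, ℝ)} {A : ℕ → Fin 3 → ℝ} {A₀ : Fin 3 → ℝ} {η : ℕ → ℝ}
    (hη : Tendsto η atTop (𝓝 0)) (hA : Tendsto A atTop (𝓝 A₀))
    (hap : ∀ n, D.Ap (closedBall p (4 * r)) 1 (η n) (u n) (v n) (A n))
    (hu : UC (closedBall p (4 * r)) u) (hv : UC (closedBall p (4 * r)) v)
    (har : ∀ n, ENNReal.ofReal c ≤ volume (cx (u n) (v n) '' closedBall p r)) :
    ∃ u' v', D.QM (ball p (2 * r)) u' v' A₀ := by
  obtain ⟨χ, hχ, -, h1, hs⟩ := D.cutoff (isClosed_closedBall (x := p) (ε := 2 * r)).isCompact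
    (isOpen_ball (x := p) (ε := 4 * r)) (closedBall_subset_ball (by linarith))
  have h1' : ∀ ξ ∈ ball p (2 * r), χ ξ = 1 := fun ξ hξ =>
    h1.self_of_nhdsSet ξ (ball_subset_closedBall hξ)
  have hsub : ball p (2 * r) ⊆ closedBall p (4 * r) :=
    ball_subset_closedBall.trans (closedBall_subset_closedBall (by linarith))
  have hK : closedBall p r ⊆ ball p (2 * r) := closedBall_subset_ball (by linarith)
  obtain ⟨w₁, hw₁, hl₁, he₁⟩ := DF.lim_en hχ (hs.trans ball_subset_closedBall) Subset.rfl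
    (fun n => (hap n).hu) hu
  obtain ⟨w₂, hw₂, hl₂, he₂⟩ := DF.lim_en hχ (hs.trans ball_subset_closedBall) Subset.rfl
    (fun n => (hap n).hv) hv
  have unif : ∀ {f : ℕ → C(Z, ℝ)} {w : C(Z, ℝ)}, Tendsto (fun n => χ * f n) atTop (𝓝 w) →
      ∀ ε > 0, ∀ᶠ n in atTop, ∀ ξ ∈ closedBall p r, |f n ξ - w ξ| ≤ ε := by
    intro f w hl ε hε
    filter_upwards [Metric.tendsto_nhds.1 hl ε hε] with n hn ξ hξ
    have h2 := (ContinuousMap.dist_apply_le_dist ξ).trans hn.le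
    rwa [ContinuousMap.mul_apply, h1' ξ (hK hξ), one_mul, Real.dist_eq] at h2
  refine ⟨w₁, w₂, ⟨isOpen_ball,
    DF.lim_harm hχ isOpen_ball h1' (fun n => (hap n).hu.mono_H hsub) hw₁ he₁,
    DF.lim_harm hχ isOpen_ball h1' (fun n => (hap n).hv.mono_H hsub) hw₂ he₂,
    closedBall p r, isClosed_closedBall.isCompact, hK,
    lt_of_lt_of_le (ENNReal.ofReal_pos.2 hc)
      (area_lim isClosed_closedBall.isCompact (unif hl₁) (unif hl₂) har)⟩, fun i θ hθ => ?_⟩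
  have key : ∀ {f g : ℕ → C(Z, ℝ)} {w w' : C(Z, ℝ)}, (∀ n, f n ∈ D.dom) → (∀ n, g n ∈ D.dom) →
      w ∈ D.dom → w' ∈ D.dom →
      Tendsto (fun n => D.I 1 (χ * f n - w) (χ * f n - w)) atTop (𝓝 0) →
      Tendsto (fun n => D.I 1 (χ * g n - w') (χ * g n - w')) atTop (𝓝 0) →
      Tendsto (fun n => D.I θ (f n) (g n)) atTop (𝓝 (D.I θ w w')) := by
    intro f g w w' hf hg hw hw' e1 e2
    exact (DF.lim_I (fun n => D.mul_mem hχ (hf n)) (fun n => D.mul_mem hχ (hg n)) hw hw' e1 e2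
      θ).congr fun n => DF.I_cut hχ isOpen_ball h1' (hf n) (hg n) hθ
  have hud : ∀ n, u n ∈ D.dom := fun n => (hap n).hu.1
  have hvd : ∀ n, v n ∈ D.dom := fun n => (hap n).hv.1
  have t11 := key hud hud hw₁ hw₁ he₁ he₁
  have t12 := key hud hvd hw₁ hw₂ he₁ he₂
  have t21 := key hvd hud hw₂ hw₁ he₂ he₁
  have t22 := key hvd hvd hw₂ hw₂ he₂ he₂
  have t : ∀ j, Tendsto (fun n => D.I θ (tri (u n) (v n) j) (tri (u n) (v n) j)) atTop
      (𝓝 (D.I θ (tri w₁ w₂ j) (tri w₁ w₂ j))) := by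
    intro j
    fin_cases j
    · exact t11
    · exact t22
    · show Tendsto (fun n => D.I θ (u n + v n) (u n + v n)) atTop (𝓝 (D.I θ (w₁ + w₂) (w₁ + w₂)))
      simp only [map_add, LinearMap.add_apply]
      exact (t11.add t21).add (t12.add t22)
  have tS : Tendsto (fun n => D.St θ (u n) (v n)) atTop (𝓝 (D.St θ w₁ w₂)) :=
    tendsto_finsetSum _ fun j _ => t j
  have h2 := ((t i).sub ((tendsto_pi_nhds.1 hA i).mul tS)).abs
  have h3 := (hη.mul_const 1).mul_const ‖θ‖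
  have h4 := le_of_tendsto_of_tendsto' h2 h3 fun n => (hap n).ap i θ (hθ.trans hsub)
  rw [zero_mul, zero_mul, abs_nonpos_iff, sub_eq_zero] at h4
  exact h4

theorem UC.comp {K : Set Z} {f : ℕ → C(Z, ℝ)} (h : UC K f) {φ : ℕ → ℕ} (hφ : StrictMono φ) :
    UC K fun n => f (φ n) := fun ε hε => by
  obtain ⟨N, hN⟩ := h ε hε
  exact ⟨N, fun n hn m hm => hN _ (hn.trans (hφ.id_le n)) _ (hm.trans (hφ.id_le m))⟩

theorem DF.HP.exists_qm (X : GP G Z) {D : DF G Z} {O : Set Z} {u v : C(Z, ℝ)} (h : D.HP O u v) :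
    ∃ O' u' v' A, D.QM O' u' v' A := by
  obtain ⟨r₀, h₀, hz⟩ := h.zoom X
  obtain ⟨r₂, h₂, hr₂, hb, he⟩ := D.unif_H X h₀
  obtain ⟨c, hc, hz⟩ := hz (r₂ / 16) (by positivity)
  choose p u' v' A hap hu0 hv0 har using
    fun n : ℕ => hz (1 / ((n : ℝ) + 1)) Nat.one_div_pos_of_nat
  have hI : ∀ n (θ : C(Z, ℝ)), (∀ ξ, 0 ≤ θ ξ ∧ θ ξ ≤ 1) → tsupport θ ⊆ ball (p n) r₀ →
      D.I θ (u' n) (u' n) ≤ 1 ∧ D.I θ (v' n) (v' n) ≤ 1 := by
    intro n θ h01 hθ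
    have h1 := DF.le_St (fun ξ => (h01 ξ).1) (hap n).hu.1 (hap n).hv.1
    have h2 := (le_abs_self _).trans ((hap n).en θ hθ)
    have h3 : ‖θ‖ ≤ 1 := (ContinuousMap.norm_le _ zero_le_one).2 fun ξ => by
      rw [Real.norm_of_nonneg (h01 ξ).1]
      exact (h01 ξ).2
    exact ⟨by linarith [h1.2.1], by linarith [h1.2.2]⟩
  obtain ⟨⟨p₀, A₀⟩, -, φ₁, hφ₁, hlim⟩ :=
    ((isCompact_univ (X := Z)).prod (isCompact_univ_pi fun _ : Fin 3 => isCompact_Icc)).tendsto_subseq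
      (x := fun n => (p n, A n)) fun n => ⟨mem_univ _, fun i _ => (hap n).mem i⟩
  obtain ⟨N, hN⟩ := Metric.tendsto_atTop.1 (continuous_fst.tendsto _ |>.comp hlim) (r₂ / 16)
    (by positivity)
  have hφ₂ : StrictMono fun n => φ₁ (n + N) := hφ₁.comp (strictMono_id.add_const N)
  have hd : ∀ n, dist (p (φ₁ (n + N))) p₀ ≤ r₂ / 16 := fun n => (hN _ (Nat.le_add_left N n)).le
  have hK : ∀ n, closedBall p₀ (4 * (r₂ / 8)) ⊆ closedBall (p (φ₁ (n + N))) r₂ := fun n =>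
    closedBall_subset_closedBall' (by rw [dist_comm]; linarith [hd n])
  have aa : ∀ (f : ℕ → C(Z, ℝ)) (ψ : ℕ → ℕ), (∀ n, D.Harm (ball (p n) r₀) (f n)) →
      (∀ n, f n (p n) = 0) → (∀ n (θ : C(Z, ℝ)), (∀ ξ, 0 ≤ θ ξ ∧ θ ξ ≤ 1) →
        tsupport θ ⊆ ball (p n) r₀ → D.I θ (f n) (f n) ≤ 1) →
      ∃ φ : ℕ → ℕ, StrictMono φ ∧
        UC (closedBall p₀ (4 * (r₂ / 8))) fun n => f (φ₁ (ψ (φ n) + N)) := by
    intro f ψ hf h0 hE
    refine aa_H isClosed_closedBall.isCompact (fun n => f (φ₁ (ψ n + N))) (fun n ξ hξ => ?_)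
      fun ε hε => ?_
    · have := hb _ _ (hf _) (hE _) ξ (hK (ψ n) hξ)
      rwa [h0, sub_zero] at this
    · obtain ⟨δ, hδ, h1⟩ := he ε hε
      exact ⟨δ, hδ, fun n ξ hξ => h1 _ _ (hf _) (hE _) ξ (hK (ψ n) hξ)⟩
  obtain ⟨φ₃, hφ₃, hU⟩ := aa u' id (fun n => (hap n).hu) hu0 fun n θ h1 h2 => (hI n θ h1 h2).1
  obtain ⟨φ₄, hφ₄, hV⟩ := aa v' φ₃ (fun n => (hap n).hv) hv0 fun n θ h1 h2 => (hI n θ h1 h2).2
  have hψ : Tendsto (fun n => φ₃ (φ₄ n) + N) atTop atTop :=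
    (tendsto_add_atTop_nat N).comp (hφ₃.comp hφ₄).tendsto_atTop
  obtain ⟨w₁, w₂, hq⟩ := D.lim_fixed (p := p₀) (r := r₂ / 8) (by positivity) hc
    (A := fun n => A (φ₁ (φ₃ (φ₄ n) + N))) (A₀ := A₀)
    (η := fun n => 1 / (((φ₁ (φ₃ (φ₄ n) + N) : ℕ) : ℝ) + 1))
    (tendsto_one_div_add_atTop_nhds_zero_nat.comp (hφ₁.tendsto_atTop.comp hψ))
    ((continuous_snd.tendsto _ |>.comp hlim).comp hψ)
    (fun n => (hap _).mono ((hK _).trans (closedBall_subset_ball (by linarith))))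
    (hU.comp hφ₄) hV fun n => (har _).trans (measure_mono (image_mono
      (closedBall_subset_closedBall' (by linarith [hd (φ₃ (φ₄ n))]))))
  exact ⟨_, w₁, w₂, A₀, hq⟩

end Vale.Agent.P198
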