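import Vale.Agent.P198.H.Lim
import Vale.Agent.P198.H.Gram

/-! # P198 block H: blow-up to a harmonic morphism (interface) -/

namespace Vale.Agent.P198
open Set Metric Filter Topology MeasureTheory
variable {G Z : Type} [Group G] [MetricSpace Z] [CompactSpace Z] [MulAction G Z]
  [ContinuousConstSMul G Z] [MeasurableSpace Z] [BorelSpace Z]

theorem DF.exists_hm (X : GP G Z) {D : DF G Z} {O : Set Z} {u v : C(Z, ℝ)} (h : D.HP O u v) :
    ∃ O' u' v', D.HM O' u' v' := by
  obtain ⟨O', u', v', A, h'⟩ := h.exists_qm X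
  exact ⟨O', h'.exists_hm X⟩

end Vale.Agent.P198
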