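import Vale.Agent.P198.H.Defs

/-! # P198 H/Pig (task): pigeonhole over the cells of level `k + l`. Helper names end with `_Pig`.
Plan. `N` from `GP.count` with `κ = (q ^ l)⁻¹` at level `k + l` (so `κ * q ^ (k + l) = q ^ k`). `Y` = the `y ∈ X.S (k + l)` whose ball
`closedBall (π y) (C q ^ (k + l))` meets `K`; these balls cover `K` (`X.net`). If no `π y` works then
`volume (φ '' K) ≤ ∑ y ∈ Y, volume (φ '' B y) ≤ c * ∑ y ∈ Y, lam (B' y) = c * ∫⁻ ∑ indicator ≤ c * (N * lam univ)`
(`measure_biUnion_finset_le`, `lintegral_indicator_one`, `lintegral_finset_sum`, `Finset.sum_boole`). -/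

set_option linter.unusedSectionVars false

namespace Vale.Agent.P198
open Set Metric Filter Topology MeasureTheory
variable {G Z : Type} [Group G] [MetricSpace Z] [CompactSpace Z] [MulAction G Z]
  [ContinuousConstSMul G Z] [MeasurableSpace Z] [BorelSpace Z]

theorem GP.pig (X : GP G Z) (l : ℕ) : ∃ N : ℕ, ∀ (k : ℕ) (lam : Measure Z) (φ : Z → ℂ) (K : Set Z)
    (c : ENNReal), c * (N * lam univ) < volume (φ '' K) →
      ∃ p, (closedBall p (X.C * X.q ^ (k + l)) ∩ K).Nonempty ∧
        c * lam (closedBall p (X.q ^ k)) < volume (φ '' closedBall p (X.C * X.q ^ (k + l))) := by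
  classical
  obtain ⟨N, hN⟩ := X.count (X.q ^ l)⁻¹
  refine ⟨N, fun k lam φ K c h => ?_⟩
  by_contra hc
  push Not at hc
  refine h.not_ge ?_
  have e : (X.q ^ l)⁻¹ * X.q ^ (k + l) = X.q ^ k := by
    have := (pow_pos X.q_pos l).ne'
    rw [pow_add]
    field_simp
  have h1 : φ '' K ⊆ ⋃ y ∈ (X.S (k + l)).filter fun y =>
      (closedBall (X.π y) (X.C * X.q ^ (k + l)) ∩ K).Nonempty,
        φ '' closedBall (X.π y) (X.C * X.q ^ (k + l)) := by
    rintro _ ⟨ξ, hξ, rfl⟩
    obtain ⟨y, a1, a2⟩ := X.net (k + l) ξ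
    exact mem_biUnion (x := y) (Finset.mem_coe.2 (Finset.mem_filter.2 ⟨X.mem_S.2 a1, ξ, a2, hξ⟩))
      ⟨ξ, a2, rfl⟩
  refine (measure_mono h1).trans ((measure_biUnion_finset_le _ _).trans ((Finset.sum_le_sum
    fun y hy => hc _ (Finset.mem_filter.1 hy).2).trans ?_))
  rw [← Finset.mul_sum]
  refine mul_le_mul_right ((Finset.sum_le_sum_of_subset (Finset.filter_subset _ _)).trans ?_) _
  simp only [← lintegral_indicator_one measurableSet_closedBall]
  rw [← lintegral_finsetSum _ fun y _ => measurable_one.indicator measurableSet_closedBall,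
    ← lintegral_const]
  refine lintegral_mono fun ξ => ?_
  have h2 := hN (k + l) ξ
  rw [e] at h2
  simp only [indicator, mem_closedBall', Pi.one_apply, Finset.sum_boole]
  exact_mod_cast h2

end Vale.Agent.P198
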