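import Vale.Agent.P198.H.Dens
import Vale.Agent.P198.H.Pig

/-! # P198 H/Pick (task): a small ball with almost constant densities and large image. Helper names end with `_Pick`.
Plan. `K` from `h.area`, `thickening δ₀ K ⊆ O` (`IsCompact.exists_thickening_subset_open`), `m i = D.Γ (tri u v i)`, `μ = ∑ i, m i`,
`T = μ.real univ + 1`, `V = (volume (cx u v '' K)).toReal > 0` (the image is compact: `cx u v` is continuous), `c = V / (2 (N + 1) T)`.
Given `η`: `dens_H` with `ε = η / 2`; `k` with `q ^ k < δ` and `(C + 1) q ^ k < δ₀`; `lam = μ + ENNReal.ofReal ε⁻¹ • ν` has mass `≤ T`; `pig` gives `p`;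
`m = (volume (cx u v '' B)).toReal / c`, so `μ.real B' ≤ m`, `ν.real B' ≤ ε m`. `D.repr`, `tri_mem` turn `D.I` into integrals;
`|∫ θ ∂m i| ≤ ‖θ‖ * (m i).real B'` (`setIntegral_eq_integral_of_forall_compl_eq_zero`, `norm_setIntegral_le_of_norm_le_const`). -/

set_option linter.unusedSectionVars false

namespace Vale.Agent.P198
open Set Metric Filter Topology MeasureTheory
variable {G Z : Type} [Group G] [MetricSpace Z] [CompactSpace Z] [MulAction G Z]
  [ContinuousConstSMul G Z] [MeasurableSpace Z] [BorelSpace Z]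

theorem cont_cx_Pick (u v : C(Z, ℝ)) : Continuous (cx u v) := by
  have e : cx u v = fun ξ => ((u ξ : ℝ) : ℂ) + ((v ξ : ℝ) : ℂ) * Complex.I := by
    funext ξ
    apply Complex.ext <;> simp [cx]
  rw [e]
  fun_prop

theorem int_le_Pick (μ : Measure Z) [IsFiniteMeasure μ] {θ : C(Z, ℝ)} {W : Set Z}
    (h : ∀ ξ, ξ ∉ W → θ ξ = 0) : |∫ ξ, θ ξ ∂μ| ≤ μ.real W * ‖θ‖ := by
  rw [← setIntegral_eq_integral_of_forall_compl_eq_zero h, mul_comm]
  exact norm_setIntegral_le_of_norm_le_const (measure_lt_top _ _)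
    fun ξ _ => θ.norm_coe_le_norm ξ

theorem DF.HP.pick (X : GP G Z) {D : DF G Z} {O : Set Z} {u v : C(Z, ℝ)} (h : D.HP O u v) (l : ℕ) :
    ∃ c > 0, ∀ η > 0, ∃ (k : ℕ) (p : Z) (m : ℝ) (A : Fin 3 → ℝ), 0 < m ∧
      D.Ap (closedBall p (X.q ^ k)) m η u v A ∧
      ENNReal.ofReal (c * m) ≤ volume (cx u v '' closedBall p (X.C * X.q ^ (k + l))) := by
  obtain ⟨K, hK, hKO, hV⟩ := h.area
  obtain ⟨δ₀, hδ₀, hth⟩ := hK.exists_thickening_subset_open h.op hKO
  obtain ⟨N, hN⟩ := X.pig l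
  have hfin : ∀ S : Set Z, IsCompact S → volume (cx u v '' S) ≠ ⊤ := fun S hS =>
    (hS.image (cont_cx_Pick u v)).measure_lt_top.ne
  have hm : ∀ i, IsFiniteMeasure (D.Γ (tri u v i)) := fun i => D.fin _
  have hS0 : ∀ W : Set Z, 0 ≤ ∑ j, (D.Γ (tri u v j)).real W := fun W =>
    Finset.sum_nonneg fun j _ => measureReal_nonneg
  obtain ⟨T, hT⟩ : ∃ T, T = ∑ j, (D.Γ (tri u v j)).real univ + 1 := ⟨_, rfl⟩
  have hT0 : 0 < T := by linarith [hS0 univ]
  obtain ⟨V, hVe⟩ : ∃ V, V = (volume (cx u v '' K)).toReal := ⟨_, rfl⟩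
  have hV0 : 0 < V := hVe ▸ ENNReal.toReal_pos hV.ne' (hfin K hK)
  obtain ⟨c, hc⟩ : ∃ c, c = V / (2 * (N + 1) * T) := ⟨_, rfl⟩
  have hc0 : 0 < c := by rw [hc]; positivity
  have hcV : c * (N * T) < V := by
    have e : V = c * (2 * (N + 1) * T) := by rw [hc]; field_simp
    rw [e]
    refine mul_lt_mul_of_pos_left ?_ hc0
    have : (0 : ℝ) ≤ N := Nat.cast_nonneg N
    nlinarith
  refine ⟨c, hc0, fun η hη => ?_⟩
  obtain ⟨ν, δ, hν, hν1, hδ, hA⟩ := dens_H (fun i => D.Γ (tri u v i)) hm hη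
  have hC := X.C_ge
  obtain ⟨k, hk⟩ := exists_pow_lt_of_lt_one
    (lt_min hδ (div_pos hδ₀ (by linarith : 0 < X.C + 1))) X.q_lt
  have hk1 : X.q ^ k < δ := hk.trans_le (min_le_left _ _)
  have hk2 : X.q ^ k * (X.C + 1) < δ₀ :=
    (lt_div_iff₀ (by linarith)).1 (hk.trans_le (min_le_right _ _))
  have hlam : ∀ W : Set Z, ((∑ j, D.Γ (tri u v j)) + ENNReal.ofReal η⁻¹ • ν) W =
      ENNReal.ofReal (∑ j, (D.Γ (tri u v j)).real W + η⁻¹ * ν.real W) := fun W => by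
    rw [ENNReal.ofReal_add (hS0 W) (mul_nonneg (by positivity) measureReal_nonneg),
      ENNReal.ofReal_sum_of_nonneg fun j _ => measureReal_nonneg,
      ENNReal.ofReal_mul (by positivity), Measure.add_apply, Measure.smul_apply,
      Measure.finsetSum_apply, smul_eq_mul]
    simp only [ofReal_measureReal (measure_ne_top _ _)]
  obtain ⟨p, ⟨ζ, hζ, hζK⟩, hp⟩ := hN k ((∑ j, D.Γ (tri u v j)) + ENNReal.ofReal η⁻¹ • ν) (cx u v) K
    (ENNReal.ofReal c) (by
      have e1 : ∑ j, (D.Γ (tri u v j)).real univ + η⁻¹ * ν.real univ ≤ T := by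
        rw [hT]
        have : η⁻¹ * ν.real univ ≤ 1 := by
          rw [inv_mul_le_iff₀ hη, mul_one]
          exact hν1
        linarith
      rw [hlam, ← ENNReal.ofReal_natCast, ← ENNReal.ofReal_mul (Nat.cast_nonneg N),
        ← ENNReal.ofReal_mul hc0.le, ← ENNReal.ofReal_toReal (hfin K hK), ← hVe,
        ENNReal.ofReal_lt_ofReal_iff hV0]
      exact (mul_le_mul_of_nonneg_left (mul_le_mul_of_nonneg_left e1 (Nat.cast_nonneg N))
        hc0.le).trans_lt hcV)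
  have hw := hfin _ (isClosed_closedBall (x := p) (ε := X.C * X.q ^ (k + l))).isCompact
  obtain ⟨w, hwe⟩ : ∃ w, w = (volume (cx u v '' closedBall p (X.C * X.q ^ (k + l)))).toReal :=
    ⟨_, rfl⟩
  have hν0 : 0 ≤ η⁻¹ * ν.real (closedBall p (X.q ^ k)) :=
    mul_nonneg (by positivity) measureReal_nonneg
  have hS1 := hS0 (closedBall p (X.q ^ k))
  rw [hlam, ← ENNReal.ofReal_mul hc0.le, ← ENNReal.ofReal_toReal hw, ← hwe,
    ENNReal.ofReal_lt_ofReal_iff_of_nonneg (mul_nonneg hc0.le (add_nonneg hS1 hν0)),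
    ← lt_div_iff₀' hc0] at hp
  have hO : closedBall p (X.q ^ k) ⊆ O := fun ξ hξ => by
    refine hth (mem_thickening_iff.2 ⟨ζ, hζK, ?_⟩)
    have e1 : dist ξ p ≤ X.q ^ k := hξ
    have e2 : dist ζ p ≤ X.C * X.q ^ (k + l) := hζ
    have e3 : X.q ^ (k + l) ≤ X.q ^ k :=
      pow_le_pow_of_le_one X.q_pos.le X.q_lt.le (Nat.le_add_right k l)
    have e4 := dist_triangle_right ξ ζ p
    have e5 : X.C * X.q ^ (k + l) ≤ X.C * X.q ^ k := mul_le_mul_of_nonneg_left e3 (by linarith)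
    linarith
  obtain ⟨A, hA1, hA2⟩ := hA p
  have hrep : ∀ (θ : C(Z, ℝ)) (i : Fin 3),
      D.I θ (tri u v i) (tri u v i) = ∫ ξ, θ ξ ∂(D.Γ (tri u v i)) :=
    fun θ i => D.repr θ _ (tri_mem h.hu.1 h.hv.1 i)
  have hz : ∀ θ : C(Z, ℝ), tsupport θ ⊆ closedBall p (X.q ^ k) →
      ∀ ξ, ξ ∉ closedBall p (X.q ^ k) → θ ξ = 0 :=
    fun θ hθ ξ hξ => image_eq_zero_of_notMem_tsupport fun h' => hξ (hθ h')
  refine ⟨k, p, w / c, A, by linarith, ⟨h.hu.mono_H hO, h.hv.mono_H hO, hA1, fun θ hθ => ?_,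
    fun i θ hθ => ?_⟩, ?_⟩
  · simp only [DF.St, hrep]
    refine (Finset.abs_sum_le_sum_abs _ _).trans ((Finset.sum_le_sum fun j _ =>
      int_le_Pick (D.Γ (tri u v j)) (hz θ hθ)).trans ?_)
    rw [← Finset.sum_mul]
    exact mul_le_mul_of_nonneg_right (by linarith) (norm_nonneg _)
  · simp only [DF.St, hrep]
    refine (hA2 _ measurableSet_closedBall (closedBall_subset_ball hk1) θ (hz θ hθ) i).trans ?_
    rw [mul_comm]
    refine mul_le_mul_of_nonneg_right ?_ (norm_nonneg _)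
    have e1 : ν.real (closedBall p (X.q ^ k)) = η * (η⁻¹ * ν.real (closedBall p (X.q ^ k))) := by
      field_simp
    rw [e1, ← mul_add, add_comm]
    exact mul_le_mul_of_nonneg_left hp.le hη.le
  · rw [mul_div_cancel₀ _ hc0.ne', hwe, ENNReal.ofReal_toReal hw]

end Vale.Agent.P198
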