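import Vale.Agent.P198.H.Defs

/-! # P198 H/Scale (task): pull-back and rescaling. Helper names end with `_Scale`.
Plan. `Ap.pull`: `Harm.pull`; `θ' = pull g⁻¹ θ` has `pull g θ' = θ`, `tsupport θ' ⊆ W` (`tsupport_comp_eq_preimage` for `Homeomorph.smul`, or
`closure_minimal` into the closed set `(g⁻¹ • ·) ⁻¹' tsupport θ`), `‖θ'‖ ≤ ‖θ‖` (`ContinuousMap.norm_le`), `tri (pull g u) (pull g v) i = pull g (tri u v i)`, `D.inv`, `tri_mem`.
`Ap.scale`: `D.I θ (s • (f - const c)) (s • (f - const c)) = s ^ 2 * D.I θ f f` (`I_const_H`, `D.symm`), `s ^ 2 = m⁻¹`; the third function is `s • (u + v - const (a + b))`.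
`area_scale`: `Measure.addHaar_smul` (`finrank ℝ ℂ = 2`), `measure_preimage_add` / `image_add_right`. -/

set_option linter.unusedSectionVars false

namespace Vale.Agent.P198
open Set Metric Filter Topology MeasureTheory
variable {G Z : Type} [Group G] [MetricSpace Z] [CompactSpace Z] [MulAction G Z]
  [ContinuousConstSMul G Z] [MeasurableSpace Z] [BorelSpace Z]

variable {D : DF G Z} {W : Set Z} {m η : ℝ} {u v : C(Z, ℝ)} {A : Fin 3 → ℝ}

theorem pull_pull_Scale (g : G) (θ : C(Z, ℝ)) : pull g (pull g⁻¹ θ) = θ := by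
  ext ξ
  simp [pull]

theorem norm_pull_Scale (g : G) (θ : C(Z, ℝ)) : ‖pull g θ‖ = ‖θ‖ := by
  have h : ∀ (g : G) (θ : C(Z, ℝ)), ‖pull g θ‖ ≤ ‖θ‖ := fun g θ =>
    (ContinuousMap.norm_le _ (norm_nonneg _)).2 fun ξ => θ.norm_coe_le_norm _
  refine le_antisymm (h g θ) ?_
  have := h g⁻¹ (pull g⁻¹⁻¹ θ)
  rwa [pull_pull_Scale, inv_inv] at this

theorem back_Scale (g : G) {θ : C(Z, ℝ)} (hθ : tsupport θ ⊆ (fun ξ => g • ξ) ⁻¹' W) :
    ∃ θ' : C(Z, ℝ), pull g θ' = θ ∧ tsupport θ' ⊆ W := by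
  refine ⟨pull g⁻¹ θ, pull_pull_Scale g θ, fun ξ hξ => ?_⟩
  have h1 : tsupport (pull g⁻¹ θ) ⊆ (fun ξ => g⁻¹ • ξ) ⁻¹' tsupport θ :=
    closure_minimal (fun ξ hξ => subset_tsupport θ hξ)
      ((isClosed_tsupport _).preimage (continuous_const_smul _))
  simpa using hθ (h1 hξ)

theorem tri_pull_Scale (g : G) (u v : C(Z, ℝ)) (i : Fin 3) :
    tri (pull g u) (pull g v) i = pull g (tri u v i) := by
  fin_cases i <;> rfl

theorem DF.Ap.pull (h : D.Ap W m η u v A) (g : G) :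
    D.Ap ((fun ξ => g • ξ) ⁻¹' W) m η (pull g u) (pull g v) A := by
  have hd := tri_mem h.hu.1 h.hv.1
  have e : ∀ θ i, D.I (P198.pull g θ) (tri (P198.pull g u) (P198.pull g v) i)
      (tri (P198.pull g u) (P198.pull g v) i) = D.I θ (tri u v i) (tri u v i) := fun θ i => by
    rw [tri_pull_Scale, D.inv g θ _ (hd i) _ (hd i)]
  have e' : ∀ θ, D.St (P198.pull g θ) (P198.pull g u) (P198.pull g v) = D.St θ u v := fun θ =>
    Finset.sum_congr rfl fun i _ => e θ i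
  refine ⟨h.hu.pull g, h.hv.pull g, h.mem, fun θ hθ => ?_, fun i θ hθ => ?_⟩
  · obtain ⟨θ', rfl, h1⟩ := back_Scale g hθ
    rw [e', norm_pull_Scale]
    exact h.en _ h1
  · obtain ⟨θ', rfl, h1⟩ := back_Scale g hθ
    rw [e', e, norm_pull_Scale]
    exact h.ap _ _ h1

theorem tri_smul_Scale (u v : C(Z, ℝ)) (s a b : ℝ) (i : Fin 3) :
    ∃ c, tri (s • (u - ContinuousMap.const Z a)) (s • (v - ContinuousMap.const Z b)) i =
      s • (tri u v i - ContinuousMap.const Z c) := by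
  fin_cases i
  · exact ⟨a, rfl⟩
  · exact ⟨b, rfl⟩
  · refine ⟨a + b, ?_⟩
    ext ξ
    simp [tri]
    ring

theorem I_smul_Scale (θ : C(Z, ℝ)) {f : C(Z, ℝ)} (hf : f ∈ D.dom) (s c : ℝ) :
    D.I θ (s • (f - ContinuousMap.const Z c)) (s • (f - ContinuousMap.const Z c)) =
      s * s * D.I θ f f := by
  have h1 := D.I_const_H θ c hf
  have h2 := D.I_const_H θ c (D.const_mem c)
  have h3 := (D.symm θ _ _).trans h1
  simp only [map_smul, map_sub, LinearMap.smul_apply, LinearMap.sub_apply, smul_eq_mul, h1, h2, h3]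
  ring

theorem DF.Ap.scale (h : D.Ap W m η u v A) (hm : 0 < m) (a b : ℝ) :
    D.Ap W 1 η ((√m)⁻¹ • (u - ContinuousMap.const Z a)) ((√m)⁻¹ • (v - ContinuousMap.const Z b))
      A := by
  have hd := tri_mem h.hu.1 h.hv.1
  have hc : ∀ c, D.Harm W (ContinuousMap.const Z c) := fun c =>
    ⟨D.const_mem c, fun f hf _ => D.I_const_H 1 c hf⟩
  have hs : (√m)⁻¹ * (√m)⁻¹ = m⁻¹ := by rw [← mul_inv, Real.mul_self_sqrt hm.le]
  have e : ∀ θ i, D.I θ (tri ((√m)⁻¹ • (u - ContinuousMap.const Z a))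
      ((√m)⁻¹ • (v - ContinuousMap.const Z b)) i) (tri ((√m)⁻¹ • (u - ContinuousMap.const Z a))
      ((√m)⁻¹ • (v - ContinuousMap.const Z b)) i) = m⁻¹ * D.I θ (tri u v i) (tri u v i) := by
    intro θ i
    obtain ⟨c, hc⟩ := tri_smul_Scale u v (√m)⁻¹ a b i
    rw [hc, I_smul_Scale θ (hd i), hs]
  have e' : ∀ θ, D.St θ ((√m)⁻¹ • (u - ContinuousMap.const Z a))
      ((√m)⁻¹ • (v - ContinuousMap.const Z b)) = m⁻¹ * D.St θ u v := fun θ => by
    rw [DF.St, DF.St, Finset.mul_sum]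
    exact Finset.sum_congr rfl fun i _ => e θ i
  refine ⟨(h.hu.sub_H (hc a)).smul_H _, (h.hv.sub_H (hc b)).smul_H _, h.mem, fun θ hθ => ?_,
    fun i θ hθ => ?_⟩
  · rw [e', abs_mul, abs_of_pos (inv_pos.2 hm), inv_mul_le_iff₀ hm, one_mul]
    exact h.en θ hθ
  · rw [e', e, mul_left_comm, ← mul_sub, abs_mul, abs_of_pos (inv_pos.2 hm), inv_mul_le_iff₀ hm]
    exact (h.ap i θ hθ).trans_eq (by ring)

open scoped Pointwise in
theorem area_scale (u v : C(Z, ℝ)) (hm : 0 < m) (a b : ℝ) (S : Set Z) {c : ℝ}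
    (h : ENNReal.ofReal (c * m) ≤ volume (cx u v '' S)) :
    ENNReal.ofReal c ≤ volume (cx ⇑((√m)⁻¹ • (u - ContinuousMap.const Z a))
      ⇑((√m)⁻¹ • (v - ContinuousMap.const Z b)) '' S) := by
  have hs : (√m)⁻¹ ^ 2 = m⁻¹ := by rw [inv_pow, Real.sq_sqrt hm.le]
  have e : cx ⇑((√m)⁻¹ • (u - ContinuousMap.const Z a))
      ⇑((√m)⁻¹ • (v - ContinuousMap.const Z b)) '' S =
      (√m)⁻¹ • ((fun z => z + ⟨a, b⟩) ⁻¹' (cx u v '' S)) := by
    rw [← image_add_right', ← image_smul, image_image, image_image]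
    refine image_congr fun ξ _ => ?_
    apply Complex.ext <;> simp [cx, sub_eq_add_neg]
  rw [e, Measure.addHaar_smul, measure_preimage_add_right, Complex.finrank_real_complex, hs,
    abs_of_pos (inv_pos.2 hm)]
  refine le_trans ?_ (mul_le_mul_right h _)
  rw [← ENNReal.ofReal_mul (inv_pos.2 hm).le, mul_left_comm, inv_mul_cancel₀ hm.ne', mul_one]

end Vale.Agent.P198
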