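import Vale.Agent.P198.H.Pick
import Vale.Agent.P198.H.Scale

/-! # P198 H/Zoom (task): blow up to unit scale. Helper names end with `_Zoom`.
Plan. `L` from `X.zoom`, `r₀ = 1 / L`; `l` with `C q ^ l ≤ 1` and `L C q ^ l ≤ r₁` (`exists_pow_lt_of_lt_one`); `c` from `pick`; `g` from `zoom k p`, `p' = g⁻¹ • p`.
`ball p' (1 / L) ⊆ (g • ·) ⁻¹' closedBall p (q ^ k)` (second part of zoom with `g • ξ`), `cx u v '' closedBall p (C q ^ (k + l)) ⊆ cx (pull g u) (pull g v) '' closedBall p' r₁`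
(first part). `Ap.pull`, `Ap.mono`, `Ap.scale` and `area_scale` with `a = u p`, `b = v p`. -/

set_option linter.unusedSectionVars false

namespace Vale.Agent.P198
open Set Metric Filter Topology MeasureTheory
variable {G Z : Type} [Group G] [MetricSpace Z] [CompactSpace Z] [MulAction G Z]
  [ContinuousConstSMul G Z] [MeasurableSpace Z] [BorelSpace Z]

theorem DF.HP.zoom (X : GP G Z) {D : DF G Z} {O : Set Z} {u v : C(Z, ℝ)} (h : D.HP O u v) :
    ∃ r₀ > 0, ∀ r₁ > 0, ∃ c > 0, ∀ η > 0, ∃ (p : Z) (u' v' : C(Z, ℝ)) (A : Fin 3 → ℝ),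
      D.Ap (ball p r₀) 1 η u' v' A ∧ u' p = 0 ∧ v' p = 0 ∧
        ENNReal.ofReal c ≤ volume (cx u' v' '' closedBall p r₁) := by
  obtain ⟨L, hL, hz⟩ := X.zoom
  have hC : 0 < X.C := lt_of_lt_of_le one_pos X.C_ge
  have hL0 : 0 < L := lt_of_lt_of_le one_pos hL
  refine ⟨1 / L, by positivity, fun r₁ hr₁ => ?_⟩
  obtain ⟨l, hl⟩ := exists_pow_lt_of_lt_one
    (show 0 < min (1 / X.C) (r₁ / (L * X.C)) by positivity) X.q_lt
  have h1 : X.C * X.q ^ l ≤ 1 := by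
    have := (lt_min_iff.1 hl).1
    rw [lt_div_iff₀ hC] at this
    linarith
  have h2 : L * (X.C * X.q ^ l) ≤ r₁ := by
    have := (lt_min_iff.1 hl).2
    rw [lt_div_iff₀ (by positivity)] at this
    linarith
  obtain ⟨c, hc, hp⟩ := h.pick X l
  refine ⟨c, hc, fun η hη => ?_⟩
  obtain ⟨k, p, m, A, hm, hap, har⟩ := hp η hη
  obtain ⟨g, hg1, hg2⟩ := hz k p
  have hq : 0 < X.q ^ k := pow_pos X.q_pos k
  refine ⟨g⁻¹ • p, _, _, A, ((hap.pull g).mono fun ξ hξ => ?_).scale hm (u p) (v p), ?_, ?_,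
    area_scale _ _ hm _ _ _ (har.trans (measure_mono ?_))⟩
  · by_contra h3
    have h4 := hg2 (g • ξ) (not_le.1 h3).le
    rw [inv_smul_smul] at h4
    have h5 : dist ξ (g⁻¹ • p) < 1 / L := hξ
    rw [lt_div_iff₀ hL0] at h5
    linarith
  · simp [pull]
  · simp [pull]
  · rintro _ ⟨ζ, hζ, rfl⟩
    have h3 : dist ζ p ≤ X.C * X.q ^ l * X.q ^ k := by
      rw [mul_assoc, ← pow_add, add_comm]
      exact hζ
    have h4 : ζ ∈ closedBall p (X.q ^ k) := h3.trans (by nlinarith)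
    have h5 := (hg1 ζ h4 p (mem_closedBall_self hq.le)).1
    refine ⟨g⁻¹ • ζ, ?_, by simp [cx, pull]⟩
    refine le_of_mul_le_mul_right (h5.trans ?_) hq
    calc L * dist ζ p ≤ L * (X.C * X.q ^ l * X.q ^ k) := by gcongr
      _ = L * (X.C * X.q ^ l) * X.q ^ k := by ring
      _ ≤ r₁ * X.q ^ k := by gcongr

end Vale.Agent.P198
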